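import Vale.Agent.Lib.P329U.UPure

open Computability

namespace Vale.Agent.Lib.P329

variable {α : Type} {m : ℕ} [DecidableEq α]

/-- the layered automaton over the base automaton is recognized in star height one -/
theorem Rec1_ulayrun [NeZero m] [Fintype α] (M : ℕ) [NeZero M]
    (cls : α → ZMod m) (h01 : ∀ x, cls x = 0 ∨ cls x = 1)
    (e : ZMod m) (he : e ≠ 0)
    (He : ∀ n : ℕ, (n : ZMod m) ≠ 0 → ∃ u : ℕ, (u : ZMod m) * n = e)
    (a : α) (P : Bool → α → Bool)
    (hP : (∀ β x, P β x = true → β = true ∧ x ≠ a) ∨ (∀ β x, P β x = true → β = false ∧ x = a))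
    (Y : α → Bool) (q₀ : (ZMod m × Bool) × ZMod M) :
    Rec1 (fun w : List α => w.foldl (lay M (ustep cls (-1 - e) a) (uinc cls P Y)) q₀) :=
  Rec1_of_cut _ ((0, false), 0)
    (lay_counterfree M _ _ (0, false) (uinc_hub cls (-1 - e) a P Y)
      (ubase_pure cls h01 e he He a P hP Y)) q₀

end Vale.Agent.Lib.P329
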