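import Vale.Agent.Lib.P329.CountP

open Computability

namespace Vale.Agent.Lib.P329

variable {α : Type} {m : ℕ}

/-- base automaton for gradings with values `0` and `1` in `ZMod m`: the grading, and one bit
telling whether, since the last visit of the grading zero, the letter `a` has been read at the
grading `s` -/
def ustep [DecidableEq α] (cls : α → ZMod m) (s : ZMod m) (a : α) :
    ZMod m × Bool → α → ZMod m × Bool :=
  fun b x => if cls x = 0 then b else if b.1 + 1 = 0 then (0, false)
    else (b.1 + 1, b.2 || (decide (b.1 = s) && decide (x = a)))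

/-- increments: arrivals at the grading zero, except for the ones allowed by `P`, and letters of
grading zero from `Y` read at the hub -/
def uinc (cls : α → ZMod m) (P : Bool → α → Bool) (Y : α → Bool) : ZMod m × Bool → α → Bool :=
  fun b x => if cls x = 0 then (decide (b.1 = 0) && !b.2 && Y x)
    else (decide (b.1 + 1 = 0) && !(P b.2 x))

/-- no arrival is allowed -/
def UP0 : Bool → α → Bool := fun _ _ => false
/-- allowed arrivals: bit set, arriving letter different from `a` -/
def UP1 [DecidableEq α] (a : α) : Bool → α → Bool := fun β x => β && decide (x ≠ a)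
/-- allowed arrivals: bit not set, arriving letter `a` -/
def UP2 [DecidableEq α] (a : α) : Bool → α → Bool := fun β x => !β && decide (x = a)
def UY0 : α → Bool := fun _ => false

/-- the grading with values `0`, `1` given by a set of letters -/
def clsZ (m : ℕ) (Z : α → Bool) : α → ZMod m := fun x => if Z x then 1 else 0

theorem clsZ_01 (m : ℕ) (Z : α → Bool) (x : α) : clsZ m Z x = 0 ∨ clsZ m Z x = 1 := by
  unfold clsZ
  split_ifs
  · exact Or.inr rfl
  · exact Or.inl rfl

section
variable [DecidableEq α]

theorem ustep_fst (cls : α → ZMod m) (h01 : ∀ x, cls x = 0 ∨ cls x = 1) (s : ZMod m) (a : α)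
    (b : ZMod m × Bool) (x : α) : (ustep cls s a b x).1 = b.1 + cls x := by
  unfold ustep
  rcases h01 x with h | h
  · rw [if_pos h, h, add_zero]
  · by_cases h0 : cls x = 0
    · rw [if_pos h0, h0, add_zero]
    · rw [if_neg h0, h]
      split_ifs with h2
      · exact h2.symm
      · rfl

theorem urun_fst (cls : α → ZMod m) (h01 : ∀ x, cls x = 0 ∨ cls x = 1) (s : ZMod m) (a : α) :
    ∀ (w : List α) (b : ZMod m × Bool),
      (w.foldl (ustep cls s a) b).1 = b.1 + (w.map cls).sum
  | [], b => by simp
  | x :: w, b => by
    simp only [List.foldl_cons, List.map_cons, List.sum_cons]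
    rw [urun_fst cls h01 s a w, ustep_fst cls h01, add_assoc]

theorem uinc_hub (cls : α → ZMod m) (s : ZMod m) (a : α) (P : Bool → α → Bool) (Y : α → Bool)
    (b : ZMod m × Bool) (x : α) (h : uinc cls P Y b x = true) :
    ustep cls s a b x = (0, false) := by
  unfold uinc at h
  unfold ustep
  split_ifs at h with h0
  · simp only [Bool.and_eq_true, decide_eq_true_eq, Bool.not_eq_true'] at h
    rw [if_pos h0]
    exact Prod.ext h.1.1 h.1.2
  · simp only [Bool.and_eq_true, decide_eq_true_eq] at h
    rw [if_neg h0, if_pos h.1]

end

end Vale.Agent.Lib.P329
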