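import Vale.Agent.Lib.P329U.UCount

open Computability

namespace Vale.Agent.Lib.P329

variable {α : Type} {m : ℕ} [DecidableEq α]

theorem uval_succ [NeZero m] (c : ZMod m) (h : c + 1 ≠ 0) : (c + 1).val = c.val + 1 := by
  have hlt : c.val < m := ZMod.val_lt c
  have e : c + 1 = ((c.val + 1 : ℕ) : ZMod m) := by
    push_cast
    rw [ZMod.natCast_val, ZMod.cast_id', id]
  have hne : c.val + 1 ≠ m := by
    intro hm
    apply h
    rw [e, hm]
    exact ZMod.natCast_self m
  rw [e, ZMod.val_natCast, Nat.mod_eq_of_lt (by omega)]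

/-- the bit is only set after the grading `s` -/
def UJ (s : ZMod m) (b : ZMod m × Bool) : Prop := b.2 = true → s.val < b.1.val

theorem UJ_step [NeZero m] (cls : α → ZMod m) (s : ZMod m) (a : α) (b : ZMod m × Bool) (x : α)
    (h : UJ s b) : UJ s (ustep cls s a b x) := by
  unfold ustep
  by_cases hx : cls x = 0
  · rw [if_pos hx]; exact h
  · rw [if_neg hx]
    by_cases h0 : b.1 + 1 = 0
    · rw [if_pos h0]
      intro h'
      simp at h'
    · rw [if_neg h0]
      intro h'
      show s.val < (b.1 + 1).val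
      rw [uval_succ _ h0]
      simp only [Bool.or_eq_true, Bool.and_eq_true, decide_eq_true_eq] at h'
      rcases h' with h' | h'
      · have := h h'
        omega
      · rw [h'.1]
        omega

theorem cntAt_ueq (cls : α → ZMod m) (h01 : ∀ x, cls x = 0 ∨ cls x = 1) (s : ZMod m) (a : α)
    (x : α) (q t : ZMod m) :
    ∀ (w : List α) (b : ZMod m × Bool),
      cntAt cls x q (b.1 + t) w
        = cnt (ustep cls s a) (fun b y => decide (y = x ∧ b.1 + t = q)) b w
  | [], _ => rfl
  | y :: w, b => by
    simp only [cntAt, cnt]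
    have e : b.1 + t + cls y = (ustep cls s a b y).1 + t := by
      rw [ustep_fst cls h01]; ring
    rw [e, cntAt_ueq cls h01 s a x q t w]
    simp

theorem UP1_ok (a : α) : ∀ β x, UP1 a β x = true → β = true ∧ x ≠ a := by
  intro β x h
  unfold UP1 at h
  simpa using h

theorem UP2_ok (a : α) : ∀ β x, UP2 a β x = true → β = false ∧ x = a := by
  intro β x h
  unfold UP2 at h
  simpa using h

theorem ulocal_id {R : Type} [AddCommGroup R] [One R] [NeZero m] (cls : α → ZMod m)
    (e : ZMod m) (he : e ≠ 0) (a : α) (ha : cls a ≠ 0) (h : ZMod m)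
    (b : ZMod m × Bool) (y : α) (hJ : UJ (-1 - e) b) :
    (if decide (y = a ∧ b.1 + (h + e + 1) = h) then (1 : R) else 0)
      - (if decide (y = a ∧ b.1 + (h + e + 1) = h + e) then (1 : R) else 0)
    = ((if uinc cls (UP2 a) UY0 b y then (1 : R) else 0)
        - (if uinc cls (UP1 a) UY0 b y then (1 : R) else 0))
      + ((if (ustep cls (-1 - e) a b y).2 then (1 : R) else 0) - (if b.2 then (1 : R) else 0)) := by
  have e1 : b.1 + (h + e + 1) = h ↔ b.1 = -1 - e := by
    constructor
    · intro hh; linear_combination hh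
    · intro hh; linear_combination hh
  have e2 : b.1 + (h + e + 1) = h + e ↔ b.1 + 1 = 0 := by
    constructor
    · intro hh; linear_combination hh
    · intro hh; linear_combination hh
  simp only [e1, e2]
  unfold uinc ustep UP1 UP2 UY0
  by_cases hy0 : cls y = 0
  · have hya : y ≠ a := by
      intro hh; rw [hh] at hy0; exact ha hy0
    simp [hy0, hya]
  · by_cases h0 : b.1 + 1 = 0
    · have hs : b.1 ≠ -1 - e := by
        intro hh
        apply he
        rw [hh] at h0
        have : -e = 0 := by rw [← h0]; ring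
        exact neg_eq_zero.1 this
      by_cases hya : y = a
      · subst hya
        cases hb : b.2 <;> simp [hy0, h0, hs, hb]
      · cases hb : b.2 <;> simp [hy0, h0, hs, hya, hb]
    · by_cases hs : b.1 = -1 - e
      · have hb : b.2 = false := by
          by_contra hh
          have hh' : b.2 = true := by simpa using hh
          have := hJ hh'
          rw [hs] at this
          omega
        have h0' : ¬ (-1 - e + 1 = 0) := by rw [← hs]; exact h0
        by_cases hya : y = a
        · subst hya
          simp [hy0, h0', hs, hb]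
        · simp [hy0, h0', hs, hya, hb]
      · simp [hy0, h0, hs]

/-- Difference of two graded counts of a letter of grading one. -/
theorem Rec1_udiff [NeZero m] [Fintype α] (M : ℕ) [NeZero M]
    (cls : α → ZMod m) (h01 : ∀ x, cls x = 0 ∨ cls x = 1)
    (e : ZMod m) (he : e ≠ 0)
    (He : ∀ n : ℕ, (n : ZMod m) ≠ 0 → ∃ u : ℕ, (u : ZMod m) * n = e)
    (a : α) (ha : cls a ≠ 0) (h : ZMod m) :
    Rec1 (fun w : List α => ((cntAt cls a h 0 w : ℕ) : ZMod M)
      - ((cntAt cls a (h + e) 0 w : ℕ) : ZMod M)) := by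
  set t : ZMod m := h + e + 1 with ht
  set b₀ : ZMod m × Bool := (-t, false) with hb₀
  have R1 := Rec1_ulayrun M cls h01 e he He a (UP1 a) (Or.inl (UP1_ok a)) UY0 (b₀, 0)
  have R2 := Rec1_ulayrun M cls h01 e he He a (UP2 a) (Or.inr (UP2_ok a)) UY0 (b₀, 0)
  have C1 := R1.comp Prod.snd
  have C2 := R2.comp Prod.snd
  have F := R1.comp (fun q => if q.1.2 then (1 : ZMod M) else 0)
  refine ((C2.sub' C1).add' F).congr (fun w => ?_)
  simp only [lay_run, zero_add]
  have z : (0 : ZMod m) = b₀.1 + t := by simp [hb₀]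
  rw [z, cntAt_ueq cls h01 (-1 - e) a a h t w b₀, cntAt_ueq cls h01 (-1 - e) a a (h + e) t w b₀]
  rw [cnt_cast, cnt_cast, cnt_cast, cnt_cast, ← wsum_sub, ← wsum_sub]
  rw [wsum_congr (ustep cls (-1 - e) a) _ _ (UJ (-1 - e)) (fun b x hb => UJ_step cls _ a b x hb)
    (fun b y hJ => ulocal_id (R := ZMod M) cls e he a ha h b y hJ) w b₀
    (by intro hh; simp [hb₀] at hh)]
  rw [wsum_add (ustep cls (-1 - e) a)
    (fun b y => (if uinc cls (UP2 a) UY0 b y then (1 : ZMod M) else 0)
        - (if uinc cls (UP1 a) UY0 b y then (1 : ZMod M) else 0))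
    (fun b y => (if (ustep cls (-1 - e) a b y).2 then (1 : ZMod M) else 0)
        - (if b.2 then (1 : ZMod M) else 0))]
  rw [wsum_tele (ustep cls (-1 - e) a) (fun b => if b.2 then (1 : ZMod M) else 0)]
  simp [hb₀]

end Vale.Agent.Lib.P329
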