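import Vale.Agent.Lib.P329U.UDefs

open Computability

namespace Vale.Agent.Lib.P329

variable {α : Type} [DecidableEq α]

/-- The grading of a word is a function of the letter counts. -/
theorem usum_eq_counts [Fintype α] (m : ℕ) (cls : α → ZMod m) (w : List α) :
    (w.map cls).sum = ∑ x : α, ((w.count x : ℕ) : ZMod m) * cls x := by
  induction w with
  | nil => simp
  | cons y w ih =>
    simp only [List.map_cons, List.sum_cons, ih, List.count_cons]
    have : ∀ x : α, (((w.count x + if y == x then 1 else 0 : ℕ)) : ZMod m) * cls x
        = ((w.count x : ℕ) : ZMod m) * cls x + (if y = x then cls x else 0) := by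
      intro x
      by_cases h : y = x
      · simp [h]; ring
      · simp [h]
    simp only [this, Finset.sum_add_distrib, Finset.sum_ite_eq, Finset.mem_univ, if_true]
    ring

theorem Rec1_ugrade [Fintype α] (m : ℕ) [NeZero m] (cls : α → ZMod m) :
    Rec1 (fun w : List α => (w.map cls).sum) := by
  have : Fact (Nat.Prime 2) := ⟨Nat.prime_two⟩
  have hA : Rec1 (fun w : List α => fun x : α => ((w.count x : ℕ) : ZMod m)) :=
    Rec1.pi (fun x => Rec1_count (p := 2) m x)
  have hB := hA.comp (fun d : α → ZMod m => ∑ x : α, d x * cls x)
  exact hB.congr (fun w => (usum_eq_counts m cls w).symm)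

/-- For the trivial modulus the graded count is the number of occurrences. -/
theorem cntAt_one (cls : α → ZMod 1) (x : α) (q s : ZMod 1) (w : List α) :
    cntAt cls x q s w = w.count x := by
  induction w generalizing s with
  | nil => simp [cntAt]
  | cons y w ih =>
    simp only [cntAt, ih, List.count_cons]
    have hs : s = q := Subsingleton.elim _ _
    by_cases h : y = x
    · simp [h, hs]; ring
    · simp [h]

end Vale.Agent.Lib.P329
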