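import Vale.Agent.Lib.P329U.UDefs

open Computability

namespace Vale.Agent.Lib.P329

variable {α : Type} [DecidableEq α]

theorem natCast_eq_iff_dvd_sub (n a b : ℕ) :
    (a : ZMod n) = (b : ZMod n) ↔ (n : ℤ) ∣ (a : ℤ) - b := by
  have h := ZMod.intCast_eq_intCast_iff_dvd_sub (b : ℤ) (a : ℤ) n
  rw [← h]
  push_cast
  exact eq_comm

theorem lift_core (p d : ℕ) (hp : 0 < p) (hd : 0 < d) (s h : ℕ) :
    ∑ j ∈ Finset.range p,
      (if (s : ZMod (p * d)) = ((h + j * d : ℕ) : ZMod (p * d)) then 1 else 0)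
    = if (s : ZMod d) = (h : ZMod d) then 1 else 0 := by
  have hdz : (d : ℤ) ≠ 0 := by exact_mod_cast hd.ne'
  have hpz : (0 : ℤ) < p := by exact_mod_cast hp
  by_cases hsh : (s : ZMod d) = (h : ZMod d)
  · rw [if_pos hsh]
    rw [natCast_eq_iff_dvd_sub] at hsh
    obtain ⟨q, hq⟩ := hsh
    have cond : ∀ j : ℕ, ((s : ZMod (p * d)) = ((h + j * d : ℕ) : ZMod (p * d)))
        ↔ (p : ℤ) ∣ q - j := by
      intro j
      rw [natCast_eq_iff_dvd_sub]
      have e : (s : ℤ) - ((h + j * d : ℕ) : ℤ) = (q - j) * d := by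
        push_cast
        linear_combination hq
      rw [e]
      push_cast
      exact mul_dvd_mul_iff_right hdz
    set j0 : ℕ := (q % p).toNat with hj0
    have hj0c : (j0 : ℤ) = q % p := Int.toNat_of_nonneg (Int.emod_nonneg _ hpz.ne')
    have hj0lt : j0 < p := by
      have : (j0 : ℤ) < p := by rw [hj0c]; exact Int.emod_lt_of_pos _ hpz
      exact_mod_cast this
    rw [Finset.sum_eq_single_of_mem j0 (Finset.mem_range.2 hj0lt)]
    · rw [if_pos]
      rw [cond, hj0c]
      exact Int.dvd_self_sub_emod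
    · intro j hj hne
      rw [if_neg]
      rw [cond]
      intro hdv
      apply hne
      have hjlt : (j : ℤ) < p := by exact_mod_cast Finset.mem_range.1 hj
      have h1 : q % p = (j : ℤ) % p := (Int.emod_emod_of_dvd q (dvd_refl _)).symm.trans
        (by
          rw [Int.emod_emod_of_dvd q (dvd_refl _)]
          exact (Int.emod_eq_emod_iff_emod_sub_eq_zero).2 (Int.emod_eq_zero_of_dvd hdv))
      rw [Int.emod_eq_of_lt (by positivity) hjlt] at h1
      have : (j : ℤ) = j0 := by rw [hj0c, h1]
      exact_mod_cast this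
  · rw [if_neg hsh]
    apply Finset.sum_eq_zero
    intro j _
    rw [if_neg]
    intro hc
    apply hsh
    rw [natCast_eq_iff_dvd_sub] at hc ⊢
    have h1 : (d : ℤ) ∣ (s : ℤ) - ((h + j * d : ℕ) : ℤ) :=
      dvd_trans (by push_cast; exact Dvd.intro_left _ rfl) hc
    have e : (s : ℤ) - h = ((s : ℤ) - ((h + j * d : ℕ) : ℤ)) + j * d := by
      push_cast; ring
    rw [e]
    exact dvd_add h1 (Dvd.intro_left _ rfl)

/-- TASK U8.  The graded counts modulo `d` are sums of graded counts modulo `p * d`.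
Induction on `w` (the running grading is `s`, then `s + 1` or `s`); the core is: for naturals
`s, h`, exactly one / no `j < p` satisfies `s = h + j * d` in `ZMod (p * d)` according to whether
`s = h` in `ZMod d` or not. -/
theorem cntAt_lift (p d : ℕ) (hp : 0 < p) (hd : 0 < d) (Z : α → Bool) (x : α) (h : ℕ) :
    ∀ (w : List α) (s : ℕ),
      ∑ j ∈ Finset.range p,
        cntAt (clsZ (p * d) Z) x ((h + j * d : ℕ) : ZMod (p * d)) (s : ZMod (p * d)) w
      = cntAt (clsZ d Z) x (h : ZMod d) (s : ZMod d) w := by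
  intro w
  induction w with
  | nil =>
    intro s
    simp [cntAt]
  | cons y w ih =>
    intro s
    simp only [cntAt]
    rw [Finset.sum_add_distrib]
    have hcast : ∀ n : ℕ, (s : ZMod n) + clsZ n Z y
        = ((s + (if Z y then 1 else 0) : ℕ) : ZMod n) := by
      intro n
      unfold clsZ
      split_ifs <;> simp
    rw [hcast (p * d), hcast d, ih]
    congr 1
    by_cases hyx : y = x
    · simp only [hyx, true_and]
      exact lift_core p d hp hd s h
    · simp [hyx]

end Vale.Agent.Lib.P329
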