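import Mathlib

namespace Vale.Agent.Lib.P329

/-- TASK U7.  Every nonzero subgroup of `Z / p^(K+1)` contains the multiples of `p^K`.
(`g = Nat.gcd n (p^(K+1))` is `p^i` with `i ≤ K` since `p^(K+1)` does not divide `n`; Bezout gives
`v` with `v * n = g` in `ZMod`; take `u = v * (p^K / g) * j`, made a natural number via `ZMod.val`.) -/
theorem exists_mul_eq (p K j n : ℕ) (hp : p.Prime) (hn : (n : ZMod (p ^ (K + 1))) ≠ 0) :
    ∃ u : ℕ, (u : ZMod (p ^ (K + 1))) * n = ((j * p ^ K : ℕ) : ZMod (p ^ (K + 1))) := by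
  have : NeZero (p ^ (K + 1)) := ⟨pow_ne_zero _ hp.ne_zero⟩
  have hn0 : n ≠ 0 := by
    rintro rfl
    exact hn (by simp)
  obtain ⟨i, m, hpm, rfl⟩ := Nat.exists_eq_pow_mul_and_not_dvd hn0 p hp.ne_one
  have hi : i ≤ K := by
    by_contra hcon
    apply hn
    rw [ZMod.natCast_eq_zero_iff]
    exact Dvd.dvd.mul_right (pow_dvd_pow p (by omega)) m
  have hcop : Nat.Coprime m (p ^ (K + 1)) :=
    Nat.Coprime.pow_right _ ((Nat.Prime.coprime_iff_not_dvd hp).mpr hpm).symm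
  have hinv := ZMod.coe_mul_inv_eq_one m hcop
  refine ⟨((m : ZMod (p ^ (K + 1)))⁻¹ * j * (p : ZMod (p ^ (K + 1))) ^ (K - i)).val, ?_⟩
  rw [ZMod.natCast_zmod_val]
  push_cast
  have hpow : (p : ZMod (p ^ (K + 1))) ^ K = (p : ZMod (p ^ (K + 1))) ^ (K - i) * (p : ZMod (p ^ (K + 1))) ^ i := by
    rw [← pow_add]
    congr 1
    omega
  rw [hpow]
  calc (m : ZMod (p ^ (K + 1)))⁻¹ * j * (p : ZMod (p ^ (K + 1))) ^ (K - i)
        * ((p : ZMod (p ^ (K + 1))) ^ i * m)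
      = ((m : ZMod (p ^ (K + 1))) * (m : ZMod (p ^ (K + 1)))⁻¹) *
        (j * ((p : ZMod (p ^ (K + 1))) ^ (K - i) * (p : ZMod (p ^ (K + 1))) ^ i)) := by ring
    _ = _ := by rw [hinv, one_mul]

end Vale.Agent.Lib.P329
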