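import Vale.Agent.Lib.P329U.UDiff

open Computability

namespace Vale.Agent.Lib.P329

variable {α : Type} {m : ℕ} [DecidableEq α]

theorem UP0_ok (a : α) : ∀ β x, (UP0 : Bool → α → Bool) β x = true → β = true ∧ x ≠ a := by
  intro β x h
  simp [UP0] at h

theorem uzero_id {R : Type} [AddCommGroup R] [One R] [NeZero m] (cls : α → ZMod m)
    (s : ZMod m) (x : α) (hx : cls x = 0) (q : ZMod m)
    (b : ZMod m × Bool) (y : α) (hJ : UJ s b) :
    (if decide (y = x ∧ b.1 + q = q) then (1 : R) else 0)
    = (if uinc cls UP0 (fun y => decide (y = x)) b y then (1 : R) else 0)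
        - (if uinc cls UP0 UY0 b y then (1 : R) else 0) := by
  have e1 : b.1 + q = q ↔ b.1 = 0 := by
    constructor
    · intro hh; linear_combination hh
    · intro hh; linear_combination hh
  simp only [e1]
  unfold uinc UP0 UY0
  by_cases hy0 : cls y = 0
  · by_cases h0 : b.1 = 0
    · have hb : b.2 = false := by
        by_contra hh
        have hh' : b.2 = true := by simpa using hh
        have := hJ hh'
        rw [h0] at this
        simp at this
      by_cases hyx : y = x
      · subst hyx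
        simp [hy0, h0, hb]
      · simp [hy0, h0, hb, hyx]
    · simp [hy0, h0]
  · have hyx : y ≠ x := by
      intro hh; rw [hh] at hy0; exact hy0 hx
    simp [hy0, hyx]

/-- Graded counts of a letter of grading zero. -/
theorem Rec1_uzero [NeZero m] [Fintype α] (M : ℕ) [NeZero M]
    (cls : α → ZMod m) (h01 : ∀ x, cls x = 0 ∨ cls x = 1)
    (e : ZMod m) (he : e ≠ 0)
    (He : ∀ n : ℕ, (n : ZMod m) ≠ 0 → ∃ u : ℕ, (u : ZMod m) * n = e)
    (x : α) (hx : cls x = 0) (q : ZMod m) :
    Rec1 (fun w : List α => ((cntAt cls x q 0 w : ℕ) : ZMod M)) := by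
  set b₀ : ZMod m × Bool := (-q, false) with hb₀
  have R1 := Rec1_ulayrun M cls h01 e he He x UP0 (Or.inl (UP0_ok x))
    (fun y => decide (y = x)) (b₀, 0)
  have R0 := Rec1_ulayrun M cls h01 e he He x UP0 (Or.inl (UP0_ok x)) UY0 (b₀, 0)
  have C1 := R1.comp Prod.snd
  have C0 := R0.comp Prod.snd
  refine (C1.sub' C0).congr (fun w => ?_)
  simp only [lay_run, zero_add]
  have z : (0 : ZMod m) = b₀.1 + q := by simp [hb₀]
  rw [z, cntAt_ueq cls h01 (-1 - e) x x q q w b₀]
  rw [cnt_cast, cnt_cast, cnt_cast, ← wsum_sub]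
  exact (wsum_congr (ustep cls (-1 - e) x) _ _ (UJ (-1 - e))
    (fun b y hb => UJ_step cls _ x b y hb)
    (fun b y hJ => uzero_id (R := ZMod M) cls (-1 - e) x hx q b y hJ) w b₀
    (by intro hh; simp [hb₀] at hh)).symm

end Vale.Agent.Lib.P329
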