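import Vale.Agent.Lib.P329U.UDiff
import Vale.Agent.Lib.P329U.UZero
import Vale.Agent.Lib.P329U.UNT
import Vale.Agent.Lib.P329U.ULift
import Vale.Agent.Lib.P329U.UGrade

open Computability

namespace Vale.Agent.Lib.P329

variable {α : Type} [DecidableEq α]

theorem GoodCount_one [Fintype α] (m : ℕ) (hm : m = 1) (Z : α → Bool) :
    GoodCount (clsZ m Z) := by
  subst hm
  intro n hn x q
  have : NeZero n := ⟨hn.ne'⟩
  have : Fact (Nat.Prime 2) := ⟨Nat.prime_two⟩
  exact (Rec1_count (p := 2) n x).congr (fun w => by rw [cntAt_one])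

theorem natCast_ne_zero_of_lt (N k : ℕ) (h0 : 0 < k) (h1 : k < N) : (k : ZMod N) ≠ 0 := by
  intro h
  have := (ZMod.natCast_eq_zero_iff k N).1 h
  have := Nat.le_of_dvd h0 this
  omega

theorem GoodCount_step [Fintype α] (p d m : ℕ) [Fact p.Prime] (hd : 0 < d) (hm : m = p * d)
    (He : ∀ j n : ℕ, (n : ZMod m) ≠ 0 → ∃ u : ℕ, (u : ZMod m) * n = ((j * d : ℕ) : ZMod m))
    (ih : ∀ Z : α → Bool, GoodCount (clsZ d Z)) (Z : α → Bool) : GoodCount (clsZ m Z) := by
  subst hm
  intro n hn x q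
  have hp : p.Prime := Fact.out
  have hp0 : 0 < p := hp.pos
  have hp1 : 1 < p := hp.one_lt
  have hpd : 0 < p * d := Nat.mul_pos hp0 hd
  have hdlt : d < p * d := by nlinarith
  have i1 : NeZero (p * d) := ⟨hpd.ne'⟩
  have i2 : NeZero n := ⟨hn.ne'⟩
  have h01 := clsZ_01 (α := α) (p * d) Z
  by_cases hx : Z x = true
  · have hx1 : clsZ (p * d) Z x ≠ 0 := by
      unfold clsZ
      rw [if_pos hx]
      have := natCast_ne_zero_of_lt (p * d) 1 (by omega) (by omega)
      simpa using this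
    have hM : 0 < p * n := Nat.mul_pos hp0 hn
    have i3 : NeZero (p * n) := ⟨hM.ne'⟩
    set ν : ZMod (p * d) → List α → ZMod (p * n) :=
      fun h w => ((cntAt (clsZ (p * d) Z) x h 0 w : ℕ) : ZMod (p * n)) with hν
    have hD : ∀ j : Fin p, Rec1 (fun w => ν q w - ν (q + ((j.val * d : ℕ) : ZMod (p * d))) w) := by
      intro j
      by_cases hj : ((j.val * d : ℕ) : ZMod (p * d)) = 0
      · rw [hj]
        have : Fact (Nat.Prime 2) := ⟨Nat.prime_two⟩
        refine ((Rec1_count (p := 2) (p * n) x).comp (fun _ => (0 : ZMod (p * n)))).congr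
          (fun w => ?_)
        simp
      · exact Rec1_udiff (p * n) (clsZ (p * d) Z) h01 _ hj (He j.val) x hx1 q
    have hS : Rec1 (fun w => ∑ j : Fin p, ν (q + ((j.val * d : ℕ) : ZMod (p * d))) w) := by
      refine (ih Z (p * n) hM x ((q.val : ℕ) : ZMod d)).congr (fun w => ?_)
      have h1 := cntAt_lift p d hp0 hd Z x q.val w 0
      simp only [Nat.cast_zero] at h1
      rw [← h1, Nat.cast_sum, ← Fin.sum_univ_eq_sum_range
        (fun j => ((cntAt (clsZ (p * d) Z) x ((q.val + j * d : ℕ) : ZMod (p * d)) 0 w : ℕ) :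
          ZMod (p * n))) p]
      refine Finset.sum_congr rfl (fun j _ => ?_)
      simp only [hν]
      have : ((q.val + j.val * d : ℕ) : ZMod (p * d)) = q + ((j.val * d : ℕ) : ZMod (p * d)) := by
        rw [Nat.cast_add, ZMod.natCast_val, ZMod.cast_id', id]
      rw [this]
    have hpq : Rec1 (fun w => (p : ZMod (p * n)) * ν q w) := by
      refine ((Rec1.finsum hD).add' hS).congr (fun w => ?_)
      rw [← Finset.sum_add_distrib]
      simp
    refine (hpq.comp (fun z => ((z.val / p : ℕ) : ZMod n))).congr (fun w => ?_)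
    simp only [hν]
    rw [← Nat.cast_mul, ZMod.val_natCast, Nat.mul_mod_mul_left, Nat.mul_div_cancel_left _ hp0]
    simp
  · have hx0 : clsZ (p * d) Z x = 0 := by
      unfold clsZ
      rw [if_neg hx]
    have he : ((1 * d : ℕ) : ZMod (p * d)) ≠ 0 := by
      rw [one_mul]
      exact natCast_ne_zero_of_lt (p * d) d hd hdlt
    exact Rec1_uzero n (clsZ (p * d) Z) h01 _ he (He 1) x hx0 q

theorem GoodCount_clsZ (p : ℕ) [Fact p.Prime] [Fintype α] :
    ∀ (K : ℕ) (Z : α → Bool), GoodCount (clsZ (p ^ K) Z)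
  | 0, Z => GoodCount_one _ (pow_zero p) Z
  | K + 1, Z =>
    GoodCount_step p (p ^ K) (p ^ (K + 1)) (pow_pos (Fact.out : p.Prime).pos K) (pow_succ' p K)
      (fun j n hn => exists_mul_eq p K j n Fact.out hn) (GoodCount_clsZ p K) Z

theorem GoodCount_unit (p : ℕ) [Fact p.Prime] [Fintype α] (K : ℕ) (cls : α → ZMod (p ^ K))
    (h01 : ∀ x, cls x = 0 ∨ cls x = 1) : GoodCount cls := by
  have e : cls = clsZ (p ^ K) (fun x => decide (cls x ≠ 0)) := by
    funext x
    unfold clsZ
    rcases h01 x with h | h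
    · simp [h]
    · by_cases h0 : cls x = 0
      · simp [h0]
      · simp [h0, h]
  rw [e]
  exact GoodCount_clsZ p K _

end Vale.Agent.Lib.P329
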