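import Vale.Agent.Lib.P329U.UDefs

open Computability

namespace Vale.Agent.Lib.P329

variable {α : Type} {m : ℕ} [DecidableEq α]

theorem uval_add_one [NeZero m] (c : ZMod m) (h : c + 1 ≠ 0) : (c + 1).val = c.val + 1 := by
  have hlt : c.val < m := ZMod.val_lt c
  have e : c + 1 = ((c.val + 1 : ℕ) : ZMod m) := by
    push_cast
    rw [ZMod.natCast_val, ZMod.cast_id', id]
  have hne : c.val + 1 ≠ m := by
    intro hm
    apply h
    rw [e, hm]
    exact ZMod.natCast_self m
  rw [e, ZMod.val_natCast, Nat.mod_eq_of_lt (by omega)]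

/-- Without arrival at the grading zero the grading cannot wrap around. -/
theorem uno_arrival [NeZero m] (cls : α → ZMod m) (s : ZMod m) (a : α) :
    ∀ (v : List α) (c : ZMod m × Bool),
      cnt (ustep cls s a) (uinc cls UP0 UY0) c v = 0 →
      c.1.val + v.countP (fun x => decide (cls x ≠ 0)) < m
  | [], c, _ => by
    simpa using ZMod.val_lt c.1
  | x :: v, c, h => by
    simp only [cnt] at h
    have h1 : cnt (ustep cls s a) (uinc cls UP0 UY0) (ustep cls s a c x) v = 0 := by omega
    have h2 : uinc cls UP0 UY0 c x = false := by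
      by_contra hh
      have hh' : uinc cls UP0 UY0 c x = true := by simpa using hh
      rw [hh'] at h
      simp at h
    have ih := uno_arrival cls s a v _ h1
    rw [List.countP_cons]
    by_cases hx : cls x = 0
    · have e1 : ustep cls s a c x = c := by unfold ustep; rw [if_pos hx]
      rw [e1] at ih
      have hfx : ¬ ((fun x => decide (cls x ≠ 0)) x = true) := by simpa using hx
      rw [if_neg hfx]
      omega
    · have h0 : c.1 + 1 ≠ 0 := by
        intro h0
        unfold uinc UP0 at h2
        rw [if_neg hx] at h2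
        simp [h0] at h2
      have e1 : (ustep cls s a c x).1 = c.1 + 1 := by
        unfold ustep; rw [if_neg hx, if_neg h0]
      rw [e1, uval_add_one _ h0] at ih
      have hfx : (fun x => decide (cls x ≠ 0)) x = true := by simpa using hx
      rw [if_pos hfx]
      omega

/-- A run reading at least `m` letters of nonzero grading contains an arrival. -/
theorem uexists_arrival [NeZero m] (cls : α → ZMod m) (s : ZMod m) (a : α)
    (v : List α) (c : ZMod m × Bool) (hv : m ≤ v.countP (fun x => decide (cls x ≠ 0))) :
    ∃ v₁ y v₂, v = v₁ ++ y :: v₂ ∧ cls y ≠ 0 ∧ (v₁.foldl (ustep cls s a) c).1 + 1 = 0 := by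
  have hpos : 0 < cnt (ustep cls s a) (uinc cls UP0 UY0) c v := by
    by_contra hh
    have h0 : cnt (ustep cls s a) (uinc cls UP0 UY0) c v = 0 := by omega
    have := uno_arrival cls s a v c h0
    omega
  obtain ⟨u, x, v', e, hi, -⟩ := cnt_ivt (ustep cls s a) (uinc cls UP0 UY0) v c 1 (by omega) hpos
  refine ⟨u, x, v', e, ?_⟩
  unfold uinc UP0 UY0 at hi
  by_cases hx : cls x = 0
  · rw [if_pos hx] at hi
    simp at hi
  · rw [if_neg hx] at hi
    refine ⟨hx, ?_⟩
    simpa using hi

end Vale.Agent.Lib.P329
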