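import Vale.Agent.Lib.P329U.UDefs

open Computability

namespace Vale.Agent.Lib.P329

variable {α : Type} {m : ℕ} [DecidableEq α]

/-- If the bit is set during a run, the letter `a` has been read at the grading `s`. -/
theorem ubit_origin (cls : α → ZMod m) (s : ZMod m) (a : α) :
    ∀ (v : List α) (c : ZMod m × Bool), c.2 = false →
      (v.foldl (ustep cls s a) c).2 = true →
      ∃ v₁ v₂, v = v₁ ++ a :: v₂ ∧ cls a ≠ 0 ∧ (v₁.foldl (ustep cls s a) c).1 = s
  | [], c, hc, h => by
    simp only [List.foldl_nil] at h
    rw [hc] at h
    exact absurd h (by simp)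
  | x :: v, c, hc, h => by
    simp only [List.foldl_cons] at h
    cases hb : (ustep cls s a c x).2 with
    | false =>
      obtain ⟨v₁, v₂, e, h1, h2⟩ := ubit_origin cls s a v _ hb h
      exact ⟨x :: v₁, v₂, by rw [e]; rfl, h1, h2⟩
    | true =>
      unfold ustep at hb
      by_cases hx : cls x = 0
      · rw [if_pos hx, hc] at hb
        exact absurd hb (by simp)
      · rw [if_neg hx] at hb
        by_cases h0 : c.1 + 1 = 0
        · rw [if_pos h0] at hb
          exact absurd hb (by simp)
        · rw [if_neg h0] at hb
          simp only [hc, Bool.false_or, Bool.and_eq_true, decide_eq_true_eq] at hb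
          obtain ⟨h1, h2⟩ := hb
          subst h2
          exact ⟨[], v, rfl, hx, h1⟩

/-- If arrivals with the bit set are always counted, then a run without increment starting with
the bit set has no arrival at all. -/
theorem ubit_stays (cls : α → ZMod m) (s : ZMod m) (a : α) (P : Bool → α → Bool)
    (hP : ∀ β x, P β x = true → β = false ∧ x = a) (Y : α → Bool) :
    ∀ (v : List α) (c : ZMod m × Bool), c.2 = true →
      cnt (ustep cls s a) (uinc cls P Y) c v = 0 →
      cnt (ustep cls s a) (uinc cls UP0 UY0) c v = 0
  | [], _, _, _ => rfl
  | x :: v, c, hc, h => by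
    simp only [cnt] at h ⊢
    have h1 : cnt (ustep cls s a) (uinc cls P Y) (ustep cls s a c x) v = 0 := by omega
    have h2 : uinc cls P Y c x = false := by
      by_contra hh
      have hh' : uinc cls P Y c x = true := by simpa using hh
      rw [hh'] at h
      simp at h
    by_cases hx : cls x = 0
    · have e1 : ustep cls s a c x = c := by unfold ustep; rw [if_pos hx]
      have e2 : uinc cls UP0 UY0 c x = false := by
        unfold uinc UY0; rw [if_pos hx]; simp
      rw [e1] at h1 ⊢
      rw [e2, ubit_stays cls s a P hP Y v c hc h1]
      simp
    · by_cases h0 : c.1 + 1 = 0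
      · exfalso
        unfold uinc at h2
        rw [if_neg hx] at h2
        have h3 : P c.2 x = true := by simpa [h0] using h2
        have := (hP _ _ h3).1
        rw [hc] at this
        exact absurd this (by simp)
      · have e1 : ustep cls s a c x
            = (c.1 + 1, c.2 || (decide (c.1 = s) && decide (x = a))) := by
          unfold ustep; rw [if_neg hx, if_neg h0]
        have e2 : uinc cls UP0 UY0 c x = false := by
          unfold uinc; rw [if_neg hx]; simp [h0]
        rw [e2, ubit_stays cls s a P hP Y v _ (by rw [e1, hc]; rfl) h1]
        simp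

end Vale.Agent.Lib.P329
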