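import Vale.Agent.Lib.P329U.UDefs

open Computability

namespace Vale.Agent.Lib.P329

variable {α B : Type} {m : ℕ}

/-- Generic: no increment in one period means no increment ever. -/
theorem cnt_pw_zero (δ₀ : B → α → B) (inc : B → α → Bool) (w : List α) (b : B) (k : ℕ)
    (hk : 0 < k) (hb : (pw w k).foldl δ₀ b = b) (hc : cnt δ₀ inc b (pw w k) = 0) :
    ∀ j : ℕ, cnt δ₀ inc b (pw w j) = 0 := by
  have h1 : ∀ N : ℕ, (pw (pw w k) N).foldl δ₀ b = b ∧ cnt δ₀ inc b (pw (pw w k) N) = 0 := by
    intro N
    induction N with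
    | zero => simp [pw, cnt]
    | succ N ih =>
      simp only [pw]
      rw [List.foldl_append, hb, cnt_append, hb, hc]
      exact ⟨ih.1, by rw [ih.2]⟩
  intro j
  have h2 := (h1 j).2
  rw [← pw_mul] at h2
  have e : k * j = j + (k * j - j) := by
    have : j ≤ k * j := Nat.le_mul_of_pos_left j hk
    omega
  rw [e, pw_add, cnt_append] at h2
  omega

theorem countP_pw (f : α → Bool) (w : List α) : ∀ j : ℕ, (pw w j).countP f = j * w.countP f
  | 0 => by simp [pw]
  | j + 1 => by
    simp only [pw, List.countP_append, countP_pw f w j]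
    ring

theorem usum_countP (cls : α → ZMod m) (h01 : ∀ x, cls x = 0 ∨ cls x = 1) (v : List α) :
    (v.map cls).sum = ((v.countP (fun x => decide (cls x ≠ 0)) : ℕ) : ZMod m) := by
  induction v with
  | nil => simp
  | cons x v ih =>
    simp only [List.map_cons, List.sum_cons, List.countP_cons, ih]
    by_cases h0 : cls x = 0
    · simp [h0]
    · rcases h01 x with h | h
      · exact absurd h h0
      · have h10 : (1 : ZMod m) ≠ 0 := by rw [← h]; exact h0
        simp [h, h10]
        ring

end Vale.Agent.Lib.P329
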