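import Vale.Agent.Lib.P329U.UPureA
import Vale.Agent.Lib.P329U.UPureB
import Vale.Agent.Lib.P329U.UPureC
import Vale.Agent.Lib.P329U.UPureD

open Computability

namespace Vale.Agent.Lib.P329

variable {α : Type} {m : ℕ} [DecidableEq α]

theorem ustep_arrive (cls : α → ZMod m) (s : ZMod m) (a : α) (c : ZMod m × Bool) (y : α)
    (hy : cls y ≠ 0) (h : c.1 + 1 = 0) : ustep cls s a c y = (0, false) := by
  unfold ustep
  rw [if_neg hy, if_pos h]

theorem ustep_move (cls : α → ZMod m) (s : ZMod m) (a : α) (c : ZMod m × Bool) (y : α)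
    (hy : cls y ≠ 0) (h : c.1 + 1 ≠ 0) :
    ustep cls s a c y = (c.1 + 1, c.2 || (decide (c.1 = s) && decide (y = a))) := by
  unfold ustep
  rw [if_neg hy, if_neg h]

theorem uinc_false_arr (cls : α → ZMod m) (P : Bool → α → Bool) (Y : α → Bool)
    (c : ZMod m × Bool) (y : α) (hy : cls y ≠ 0) (h : c.1 + 1 = 0)
    (hi : uinc cls P Y c y = false) : P c.2 y = true := by
  unfold uinc at hi
  rw [if_neg hy] at hi
  simpa [h] using hi

/-- purity of the base automaton: a word some power of which fixes a state without any increment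
fixes that state -/
theorem ubase_pure [NeZero m] (cls : α → ZMod m) (h01 : ∀ x, cls x = 0 ∨ cls x = 1)
    (e : ZMod m) (he : e ≠ 0)
    (He : ∀ n : ℕ, (n : ZMod m) ≠ 0 → ∃ u : ℕ, (u : ZMod m) * n = e)
    (a : α) (P : Bool → α → Bool)
    (hP : (∀ β x, P β x = true → β = true ∧ x ≠ a) ∨ (∀ β x, P β x = true → β = false ∧ x = a))
    (Y : α → Bool) :
    ∀ (w : List α) (b : ZMod m × Bool) (k : ℕ), 0 < k →
      (pw w k).foldl (ustep cls (-1 - e) a) b = b →
      cnt (ustep cls (-1 - e) a) (uinc cls P Y) b (pw w k) = 0 →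
      w.foldl (ustep cls (-1 - e) a) b = b := by
  intro w b k hk hb hc
  by_cases h0 : (w.map cls).sum = 0
  · exact upure_zero cls h01 _ a w b k hk hb h0
  exfalso
  set δ := ustep cls (-1 - e) a with hδ
  set f : α → Bool := fun x => decide (cls x ≠ 0) with hf
  set n := w.countP f with hn'
  have hsum : (w.map cls).sum = (n : ZMod m) := usum_countP cls h01 w
  have hn : (n : ZMod m) ≠ 0 := by rw [← hsum]; exact h0
  have hn1 : 0 < n := Nat.pos_of_ne_zero (by intro h; apply hn; rw [h]; simp)
  have hz : ∀ j, cnt δ (uinc cls P Y) b (pw w j) = 0 := cnt_pw_zero δ _ w b k hk hb hc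
  obtain ⟨u, hu⟩ := He n hn
  have key : ∀ (j : ℕ) (v₁ : List α) (y : α) (v₂ : List α), pw w j = v₁ ++ y :: v₂ →
      uinc cls P Y (v₁.foldl δ b) y = false := by
    intro j v₁ y v₂ h
    have h1 := hz j
    rw [h, cnt_append] at h1
    simp only [cnt] at h1
    by_contra hh
    have hh' : uinc cls P Y (v₁.foldl δ b) y = true := by simpa using hh
    rw [hh'] at h1
    simp at h1
  have hcount : ∀ j, (pw w j).countP f = j * n := countP_pw f w
  have hmn : m ≤ m * n := Nat.le_mul_of_pos_right m hn1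
  have hgrade : ∀ (j : ℕ) (v : List α), ((pw w j ++ v).foldl δ b).1
      = (v.foldl δ b).1 + (j : ZMod m) * n := by
    intro j v
    rw [hδ, urun_fst cls h01, urun_fst cls h01, List.map_append, List.sum_append, sum_pw, hsum]
    ring
  obtain ⟨v₁, y, v₂, hv, hy, harr⟩ := uexists_arrival cls (-1 - e) a (pw w m) b
    (by rw [hcount]; exact hmn)
  have hhub : δ (v₁.foldl δ b) y = (0, false) := ustep_arrive cls _ a _ y hy harr
  rcases hP with hP1 | hP2
  · obtain ⟨z₁, y', z₂, hz', hy', harr'⟩ := uexists_arrival cls (-1 - e) a (v₂ ++ pw w m)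
      (0, false) (by rw [List.countP_append, hcount]; omega)
    have hglob : pw w (m + m) = (v₁ ++ y :: z₁) ++ y' :: z₂ := by
      have h1 : pw w (m + m) = v₁ ++ y :: (v₂ ++ pw w m) := by
        rw [pw_add]
        nth_rewrite 1 [hv]
        simp
      rw [h1, hz']
      simp
    have hstate : ∀ z : List α, (v₁ ++ y :: z).foldl δ b = z.foldl δ (0, false) := by
      intro z
      rw [List.foldl_append, List.foldl_cons, hhub]
    have hk1 := key (m + m) _ y' z₂ hglob
    rw [hstate] at hk1
    have hPt : P (z₁.foldl δ (0, false)).2 y' = true :=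
      uinc_false_arr cls P Y _ y' hy' harr' hk1
    obtain ⟨hbit, -⟩ := hP1 _ _ hPt
    obtain ⟨t₁, t₂, ht, hacls, hts⟩ := ubit_origin cls (-1 - e) a z₁ (0, false) rfl hbit
    have hglob2 : pw w (u + (m + m)) = (pw w u ++ (v₁ ++ y :: t₁)) ++ a :: (t₂ ++ y' :: z₂) := by
      rw [pw_add, hglob, ht]
      simp
    have hk2 := key _ _ a _ hglob2
    have hg : ((pw w u ++ (v₁ ++ y :: t₁)).foldl δ b).1 + 1 = 0 := by
      rw [hgrade, hstate, hts, hu]
      ring
    have hPa : P ((pw w u ++ (v₁ ++ y :: t₁)).foldl δ b).2 a = true :=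
      uinc_false_arr cls P Y _ a hacls hg hk2
    exact (hP1 _ _ hPa).2 rfl
  · have hk1 := key m v₁ y v₂ hv
    have hPt : P (v₁.foldl δ b).2 y = true :=
      uinc_false_arr cls P Y _ y hy harr hk1
    obtain ⟨-, hya⟩ := hP2 _ _ hPt
    subst hya
    set u' : ℕ := (-(u : ZMod m)).val with hu'
    have hu'c : (u' : ZMod m) = -(u : ZMod m) := by
      rw [hu', ZMod.natCast_val, ZMod.cast_id', id]
    set c0 := (pw w u' ++ v₁).foldl δ b with hc0
    have hc0g : c0.1 = -1 - e := by
      rw [hc0, hgrade, hu'c, neg_mul, hu]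
      have : (v₁.foldl δ b).1 = -1 := by
        have := harr
        exact eq_neg_of_add_eq_zero_left this
      rw [this]
      ring
    have hc1 : δ c0 y = (c0.1 + 1, true) := by
      have hne : c0.1 + 1 ≠ 0 := by
        rw [hc0g]
        intro h
        apply he
        have : -e = 0 := by rw [← h]; ring
        exact neg_eq_zero.1 this
      rw [hδ, ustep_move cls _ y c0 y hy hne]
      simp [hc0g]
    have hglob : pw w (u' + (m + m)) = ((pw w u' ++ v₁) ++ [y]) ++ (v₂ ++ pw w m) := by
      rw [pw_add, pw_add]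
      nth_rewrite 1 [hv]
      simp
    have h1 := hz (u' + (m + m))
    rw [hglob, cnt_append] at h1
    have h2 : cnt δ (uinc cls P Y) (((pw w u' ++ v₁) ++ [y]).foldl δ b) (v₂ ++ pw w m) = 0 := by
      omega
    have h3 : ((pw w u' ++ v₁) ++ [y]).foldl δ b = (c0.1 + 1, true) := by
      rw [List.foldl_append, ← hc0]
      simpa using hc1
    rw [h3] at h2
    have h4 := ubit_stays cls (-1 - e) y P hP2 Y _ _ rfl h2
    have h5 := uno_arrival cls (-1 - e) y _ _ h4
    rw [List.countP_append, hcount] at h5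
    omega

end Vale.Agent.Lib.P329
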