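import Vale.Agent.Lib.P329U.UDefs

open Computability

namespace Vale.Agent.Lib.P329

variable {α : Type} {m : ℕ} [DecidableEq α]

theorem ustep_mono (cls : α → ZMod m) (s : ZMod m) (a : α) (b b' : ZMod m × Bool) (x : α)
    (h1 : b.1 = b'.1) (h2 : b.2 = true → b'.2 = true) :
    (ustep cls s a b x).1 = (ustep cls s a b' x).1 ∧
      ((ustep cls s a b x).2 = true → (ustep cls s a b' x).2 = true) := by
  obtain ⟨g, β⟩ := b
  obtain ⟨g', β'⟩ := b'
  simp only at h1 h2
  subst h1
  unfold ustep
  by_cases h0 : cls x = 0
  · simp only [if_pos h0]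
    exact ⟨trivial, h2⟩
  · simp only [if_neg h0]
    by_cases h3 : g + 1 = 0
    · simp only [if_pos h3]
      exact ⟨trivial, fun h => h⟩
    · simp only [if_neg h3]
      refine ⟨trivial, ?_⟩
      intro h
      rw [Bool.or_eq_true] at h ⊢
      rcases h with h | h
      · exact Or.inl (h2 h)
      · exact Or.inr h

theorem urun_mono (cls : α → ZMod m) (s : ZMod m) (a : α) :
    ∀ (w : List α) (b b' : ZMod m × Bool), b.1 = b'.1 → (b.2 = true → b'.2 = true) →
    (w.foldl (ustep cls s a) b).1 = (w.foldl (ustep cls s a) b').1 ∧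
      ((w.foldl (ustep cls s a) b).2 = true → (w.foldl (ustep cls s a) b').2 = true)
  | [], b, b', h1, h2 => ⟨h1, h2⟩
  | x :: w, b, b', h1, h2 => by
    simp only [List.foldl_cons]
    obtain ⟨h3, h4⟩ := ustep_mono cls s a b b' x h1 h2
    exact urun_mono cls s a w _ _ h3 h4

omit [DecidableEq α] in
theorem foldl_pw_of_fixed {β : Type} (f : β → α → β) (w : List α) (c : β)
    (hc : w.foldl f c = c) : ∀ k, (pw w k).foldl f c = c
  | 0 => rfl
  | k + 1 => by
    show (w ++ pw w k).foldl f c = c
    rw [List.foldl_append, hc, foldl_pw_of_fixed f w c hc k]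

/-- TASK U1.  A word of grading zero, some power of which fixes a state, fixes that state.
Hint: the relation `R b b' := b.1 = b'.1 ∧ (b.2 = true → b'.2 = true)` is preserved by `ustep`,
hence by runs; `w` maps the two states `(g, false)`, `(g, true)` to states of grading `g`
(`urun_fst`), monotonically, so it cannot exchange them; if `w` moves `b` then all `pw w (j+1)`
send `b` to the other state. -/
theorem upure_zero (cls : α → ZMod m) (h01 : ∀ x, cls x = 0 ∨ cls x = 1) (s : ZMod m) (a : α)
    (w : List α) (b : ZMod m × Bool) (k : ℕ) (hk : 0 < k)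
    (hb : (pw w k).foldl (ustep cls s a) b = b) (h0 : (w.map cls).sum = 0) :
    w.foldl (ustep cls s a) b = b := by
  obtain ⟨k, rfl⟩ : ∃ j, k = j + 1 := ⟨k - 1, by omega⟩
  have hfst : ∀ c : ZMod m × Bool, (w.foldl (ustep cls s a) c).1 = c.1 := by
    intro c
    rw [urun_fst cls h01, h0, add_zero]
  have hb' : (pw w k).foldl (ustep cls s a) (w.foldl (ustep cls s a) b) = b := by
    have : (w ++ pw w k).foldl (ustep cls s a) b = b := hb
    rwa [List.foldl_append] at this
  obtain ⟨g, β⟩ := b
  have hmono := urun_mono cls s a w (g, false) (g, true) rfl (fun h => by simp at h)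
  by_contra hne
  have hne2 : (w.foldl (ustep cls s a) (g, β)).2 ≠ β := by
    intro h
    exact hne (Prod.ext (hfst _) h)
  cases β with
  | false =>
    have h1 : (w.foldl (ustep cls s a) (g, false)).2 = true := by
      simpa using hne2
    have h2 : w.foldl (ustep cls s a) (g, false) = (g, true) := Prod.ext (hfst _) h1
    have h3 : w.foldl (ustep cls s a) (g, true) = (g, true) :=
      Prod.ext (hfst _) (hmono.2 h1)
    rw [h2, foldl_pw_of_fixed _ w _ h3 k] at hb'
    simp at hb'
  | true =>
    have h1 : (w.foldl (ustep cls s a) (g, true)).2 = false := by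
      simpa using hne2
    have h2 : w.foldl (ustep cls s a) (g, true) = (g, false) := Prod.ext (hfst _) h1
    have h4 : (w.foldl (ustep cls s a) (g, false)).2 = false := by
      by_contra h5
      have h6 : (w.foldl (ustep cls s a) (g, false)).2 = true := by simpa using h5
      rw [hmono.2 h6] at h1
      simp at h1
    have h3 : w.foldl (ustep cls s a) (g, false) = (g, false) := Prod.ext (hfst _) h4
    rw [h2, foldl_pw_of_fixed _ w _ h3 k] at hb'
    simp at hb'

end Vale.Agent.Lib.P329
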